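import Vale.Agent.P207.H575.T3.Core
import Vale.Agent.P207.H575.T3.AreaF

/-!
# P207, the line N3, package PA: the line case of Part A (abstract form)

All closed orbits have `r = 1`; at one of them the normalised matrices `B_κ` of the homoclinic
points preserve a line. Then the linear form `f` killing the line satisfies the homoclinic bound
with `χ = h/2` and two limit objects at one frame have proportional differentials. The exponent `χ`
is general: the same statement serves the types S, scalar and Jordan of 4.5.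
-/

open Set Filter Topology Metric MeasureTheory
open scoped ContDiff

set_option linter.unusedSectionVars false

noncomputable section

namespace Vale.Agent.P207.N3

variable {Γ X B : Type} [Group Γ] [MetricSpace X] [ProperSpace X] [MulAction Γ X]
  [IsIsometricSMul Γ X] [TopologicalSpace B] [CompactSpace B] [T2Space B] [MulAction Γ B]
  [ContinuousConstSMul Γ B]

namespace H969

/-- the determinant of two covectors of the plane -/
def dt (p q : E2 →L[ℝ] ℝ) : ℝ :=
  p (EuclideanSpace.single 0 1) * q (EuclideanSpace.single 1 1)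
    - p (EuclideanSpace.single 1 1) * q (EuclideanSpace.single 0 1)

theorem vec_eq (v : E2) : v = v 0 • EuclideanSpace.single 0 (1 : ℝ)
    + v 1 • EuclideanSpace.single 1 (1 : ℝ) := by
  ext i
  fin_cases i <;> simp

theorem cov_apply (p : E2 →L[ℝ] ℝ) (v : E2) : p v = v 0 * p (EuclideanSpace.single 0 1)
    + v 1 * p (EuclideanSpace.single 1 1) := by
  conv_lhs => rw [vec_eq v]
  rw [map_add, map_smul, map_smul, smul_eq_mul, smul_eq_mul]

theorem dt_smul_left (s : ℝ) (p q : E2 →L[ℝ] ℝ) : dt (s • p) q = s * dt p q := by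
  simp only [dt, _root_.smul_apply, smul_eq_mul]; ring

theorem dt_self (p : E2 →L[ℝ] ℝ) : dt p p = 0 := by
  simp only [dt]; ring

theorem dt_cont : Continuous fun z : (E2 →L[ℝ] ℝ) × (E2 →L[ℝ] ℝ) => dt z.1 z.2 := by
  unfold dt
  fun_prop

/-- two covectors which are proportional to a third one `v ≠ 0` are proportional -/
theorem dt_trans {p q v : E2 →L[ℝ] ℝ} (hv : v ≠ 0) (h1 : dt p v = 0) (h2 : dt q v = 0) :
    dt p q = 0 := by
  unfold dt at *
  have h3 : v (EuclideanSpace.single 0 1) ≠ 0 ∨ v (EuclideanSpace.single 1 1) ≠ 0 := by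
    by_contra hc
    push Not at hc
    exact hv (ContinuousLinearMap.ext fun a => by rw [cov_apply, hc.1, hc.2]; simp)
  rcases h3 with h | h
  · refine (mul_eq_zero.mp (?_ : v (EuclideanSpace.single 0 1) * _ = 0)).resolve_left h
    linear_combination p (EuclideanSpace.single 0 1) * (-h2) + q (EuclideanSpace.single 0 1) * h1
  · refine (mul_eq_zero.mp (?_ : v (EuclideanSpace.single 1 1) * _ = 0)).resolve_left h
    linear_combination p (EuclideanSpace.single 1 1) * (-h2) + q (EuclideanSpace.single 1 1) * h1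

theorem dt_prop {p q : E2 →L[ℝ] ℝ} (h : dt p q = 0) :
    ∃ a b : ℝ, (a ≠ 0 ∨ b ≠ 0) ∧ a • p + b • q = 0 := by
  by_cases hp : p = 0
  · exact ⟨1, 0, Or.inl one_ne_zero, by rw [hp]; simp⟩
  have h3 : p (EuclideanSpace.single 0 1) ≠ 0 ∨ p (EuclideanSpace.single 1 1) ≠ 0 := by
    by_contra hc
    push Not at hc
    exact hp (ContinuousLinearMap.ext fun a => by rw [cov_apply, hc.1, hc.2]; simp)
  unfold dt at h
  rcases h3 with h3 | h3
  · refine ⟨q (EuclideanSpace.single 0 1), - p (EuclideanSpace.single 0 1),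
      Or.inr (neg_ne_zero.mpr h3), ContinuousLinearMap.ext fun a => ?_⟩
    simp only [_root_.add_apply, _root_.smul_apply, smul_eq_mul,
      _root_.zero_apply]
    rw [cov_apply p a, cov_apply q a]
    linear_combination (-a 1) * h
  · refine ⟨q (EuclideanSpace.single 1 1), - p (EuclideanSpace.single 1 1),
      Or.inr (neg_ne_zero.mpr h3), ContinuousLinearMap.ext fun a => ?_⟩
    simp only [_root_.add_apply, _root_.smul_apply, smul_eq_mul,
      _root_.zero_apply]
    rw [cov_apply p a, cov_apply q a]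
    linear_combination (a 0) * h

end H969

namespace Leaf

variable (L : Leaf Γ X B)

/-- the charts are open maps -/
theorem isOpen_e_image (x : X) {V : Set E2} (hV : IsOpen V) (hV3 : V ⊆ ball 0 3) :
    IsOpen (L.e x '' V) := by
  have h1 : IsOpen (L.e x '' ball 0 3) := by
    have h2 : Continuous fun b : B => (x, b) := by fun_prop
    exact L.e_open.preimage h2
  have h2 : IsCompact (L.e x '' (closedBall 0 3 \ V)) :=
    ((isCompact_closedBall (0 : E2) 3).diff hV).image_of_continuousOn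
      ((L.e_cont_x x).mono sdiff_subset)
  have h3 : L.e x '' V = (L.e x '' ball 0 3) \ (L.e x '' (closedBall 0 3 \ V)) := by
    ext b
    constructor
    · rintro ⟨u, hu, rfl⟩
      refine ⟨⟨u, hV3 hu, rfl⟩, ?_⟩
      rintro ⟨v, hv, hvu⟩
      have := L.e_inj x hv.1 (ball_subset_closedBall (hV3 hu)) hvu
      exact hv.2 (this ▸ hu)
    · rintro ⟨⟨u, hu, rfl⟩, hn⟩
      refine ⟨u, ?_, rfl⟩
      by_contra hc
      exact hn ⟨u, ⟨ball_subset_closedBall hu, hc⟩, rfl⟩
  rw [h3]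
  exact h1.sdiff h2.isClosed

theorem tau_mem_dm {x y : X} {u : E2} (hu : u ∈ L.dm x y) : L.τ x y u ∈ L.dm y x :=
  ⟨L.tau_mem hu, by rw [L.e_tau hu]; exact ⟨u, hu.1, rfl⟩⟩

theorem tau_tau {x y : X} {u : E2} (hu : u ∈ L.dm x y) : L.τ y x (L.τ x y u) = u := by
  rw [L.tau_eq y x, L.e_tau hu, L.inv_e (ball_subset_closedBall hu.1)]

theorem tau_diff {x y : X} (he : L.em x = L.em y) {u : E2} (hu : u ∈ L.dm x y) :
    DifferentiableAt ℝ (L.τ x y) u :=
  ((L.tau_smooth x y he).differentiableOn (by simp)).differentiableAt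
    ((L.isOpen_dm x y).mem_nhds hu)

/-- the derivative of the transition map is invertible -/
theorem fderiv_tau_comp {x y : X} (he : L.em x = L.em y) {u : E2} (hu : u ∈ L.dm x y) :
    fderiv ℝ (L.τ y x) (L.τ x y u) ∘L fderiv ℝ (L.τ x y) u = ContinuousLinearMap.id ℝ E2 := by
  have h1 := L.tau_diff he hu
  have h2 := L.tau_diff he.symm (L.tau_mem_dm hu)
  rw [← fderiv_comp u h2 h1]
  have h3 : (L.τ y x ∘ L.τ x y) =ᶠ[𝓝 u] id := by
    filter_upwards [(L.isOpen_dm x y).mem_nhds hu] with v hv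
    exact L.tau_tau hv
  rw [h3.fderiv_eq, fderiv_id]

theorem fderiv_tau_tendsto {ι : Type*} {l : Filter ι} {x y : ι → X} {u : ι → E2} {x₀ y₀ : X}
    {u₀ : E2} (hx : Tendsto x l (𝓝 x₀)) (hy : Tendsto y l (𝓝 y₀)) (hu : Tendsto u l (𝓝 u₀))
    (he : ∀ᶠ i in l, L.em (x i) = L.em (y i)) (hd : ∀ᶠ i in l, u i ∈ L.dm (x i) (y i))
    (he₀ : L.em x₀ = L.em y₀) (hu₀ : u₀ ∈ L.dm x₀ y₀) :
    Tendsto (fun i => fderiv ℝ (L.τ (x i) (y i)) (u i)) l (𝓝 (fderiv ℝ (L.τ x₀ y₀) u₀)) := by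
  have h1 := L.tau_cont 1 ((x₀, y₀), u₀) ⟨he₀, hu₀⟩
  have h2 : Tendsto (fun i => ((x i, y i), u i)) l
      (𝓝[{p : (X × X) × E2 | L.em p.1.1 = L.em p.1.2 ∧ p.2 ∈ dom L.e p.1.1 p.1.2}]
        ((x₀, y₀), u₀)) := by
    refine tendsto_nhdsWithin_iff.mpr ⟨(hx.prodMk_nhds hy).prodMk_nhds hu, ?_⟩
    filter_upwards [he, hd] with i h3 h4
    exact ⟨h3, h4⟩
  have h3 := (h1.tendsto.comp h2)
  have h4 : ∀ (f : E2 → E2) (u : E2), fderiv ℝ f u =
      (continuousMultilinearCurryFin1 ℝ E2 E2) (iteratedFDeriv ℝ 1 f u) := by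
    intro f u
    ext v
    simp
  have h5 := ((continuousMultilinearCurryFin1 ℝ E2 E2).continuous.tendsto _).comp h3
  rw [h4]
  refine h5.congr fun i => ?_
  simp only [Function.comp_apply]
  rw [h4]
  rfl

end Leaf

/-- The line case of Part A, abstract form (parallel to `CaseI` of helper662): `f` is the first
coordinate of a chart of `B ∖ {ξ}`, smooth on the leaf of `ξ`, and its differential at the
homoclinic points `k η₀` is, up to a factor whose modulus is at most `C e^{-χ lv}`, a covector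
which depends only on the stable leaf of `η₀`. -/
structure LineCase (L : Leaf Γ X B) (χ : ℝ) where
  ξ : B
  η₀ : B
  P : Vale.Agent.P207.H575.T3.PChart ξ
  smooth : L.SmoothOn ξ P.f
  G : X → E2 →L[ℝ] ℝ
  G_cont : ContinuousOn G {y | L.ep y = η₀}
  G_ne : ∀ y, L.ep y = η₀ → G y ≠ 0
  C : ℝ
  exact : ∀ (y : X) (k : Γ), L.ep y = η₀ → L.em (k • y) = ξ → k • η₀ ≠ η₀ →
    ∃ s : ℝ, |s| ≤ C * Real.exp (-(χ * L.lv (k • y))) ∧
      fderiv ℝ (fun u => P.f (L.e (k • y) u)) 0 = s • G y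

namespace LineCase

variable {L : Leaf Γ X B} {χ : ℝ} (I : LineCase L χ)

/-- the homoclinic bound -/
theorem hom : L.HOM I.ξ I.η₀ I.P.f χ := by
  intro Q hQ hQe
  obtain ⟨M, hM⟩ := (hQ.image_of_continuousOn (I.G_cont.mono fun y hy => hQe y hy)).isBounded
    |>.exists_norm_le
  refine ⟨I.C * M, fun y hy k hk hkη => ?_⟩
  obtain ⟨s, hs, hf⟩ := I.exact y k (hQe y hy) hk hkη
  rw [hf, norm_smul, Real.norm_eq_abs]
  have h1 : ‖I.G y‖ ≤ M := hM _ ⟨y, hy, rfl⟩
  have h2 : 0 ≤ I.C * Real.exp (-(χ * L.lv (k • y))) := (abs_nonneg s).trans hs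
  calc |s| * ‖I.G y‖ ≤ (I.C * Real.exp (-(χ * L.lv (k • y)))) * M :=
        mul_le_mul hs h1 (norm_nonneg _) h2
    _ = I.C * M * Real.exp (-(χ * L.lv (k • y))) := by ring

/-- the differential of a limit object at a point `k η₀`, with at most one exception -/
theorem lim_dt {w : X} {F : E2 → ℝ} (hF : L.IsLim I.ξ I.P.f χ w F) :
    ∃ E : Set E2, E.Subsingleton ∧ ∀ u₀ ∈ ball (0 : E2) 2, u₀ ∉ E → ∀ (k : Γ),
      L.e w u₀ = k • I.η₀ → ∀ y : X, L.ep y = I.η₀ → L.em (k • y) = L.em w →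
        H969.dt (fderiv ℝ F u₀) (I.G y ∘L fderiv ℝ (L.τ w (k • y)) u₀) = 0 := by
  obtain ⟨K, x, T, g, hK, hxK, hxe, hT, hw, hFs, hlim⟩ := hF
  refine ⟨{u | u ∈ closedBall (0 : E2) 3 ∧ ∀ᶠ n in atTop, (g n)⁻¹ • L.e w u = I.η₀}, ?_, ?_⟩
  · rintro u ⟨hu3, hu⟩ v ⟨hv3, hv⟩
    obtain ⟨n, h1, h2⟩ := (hu.and hv).exists
    exact L.e_inj w hu3 hv3 (smul_left_cancel _ (h1.trans h2.symm))
  intro u₀ hu₀ hex k hk y hy hky
  have hu₀3 : u₀ ∈ ball (0 : E2) 3 := ball_subset_ball (by norm_num) hu₀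
  have hfreq : ∃ᶠ n in atTop, (g n)⁻¹ • L.e w u₀ ≠ I.η₀ := by
    intro hc
    refine hex ⟨ball_subset_closedBall hu₀3, ?_⟩
    filter_upwards [hc] with n hn
    exact not_not.mp hn
  set wn : ℕ → X := fun n => g n • L.φ (T n) (x n) with hwn
  have hemw : Tendsto (fun n => L.em (wn n)) atTop (𝓝 (L.em w)) := (L.em_cont.tendsto w).comp hw
  -- the frames `y n`
  have hyne : L.em y ≠ L.ep y := L.em_ne_ep y
  have hsm : Tendsto (fun n => k⁻¹ • L.em (wn n)) atTop (𝓝 (L.em y)) := by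
    have h1 : L.em y = k⁻¹ • L.em w := by rw [← hky, L.em_smul, inv_smul_smul]
    rw [h1]
    exact ((continuous_const_smul k⁻¹).tendsto _).comp hemw
  set yn : ℕ → X := fun n => L.hol (k⁻¹ • L.em (wn n)) y with hyn
  have hne : ∀ᶠ n in atTop, k⁻¹ • L.em (wn n) ≠ L.ep y := hsm.eventually_ne hyne
  have hyn_t : Tendsto yn atTop (𝓝 y) := by
    have h1 := L.hol_cont (L.em y, y) hyne
    rw [ContinuousWithinAt, L.hol_self y] at h1
    refine h1.comp (tendsto_nhdsWithin_iff.mpr ⟨hsm.prodMk_nhds tendsto_const_nhds, ?_⟩)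
    filter_upwards [hne] with n hn
    exact hn
  have hyn_ep : ∀ᶠ n in atTop, L.ep (yn n) = I.η₀ := by
    filter_upwards [hne] with n hn
    rw [hyn, L.hol_ep _ _ hn, hy]
  have hyn_em : ∀ᶠ n in atTop, L.em (k • yn n) = L.em (wn n) := by
    filter_upwards [hne] with n hn
    rw [L.em_smul, hyn, L.hol_em _ _ hn, smul_inv_smul]
  have hzn : Tendsto (fun n => k • yn n) atTop (𝓝 (k • y)) :=
    ((continuous_const_smul k).tendsto _).comp hyn_t
  -- the points `u n`
  obtain ⟨hmem, hun⟩ := L.inv_tendsto hw (tendsto_const_nhds (x := L.e w u₀)) hu₀3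
  set un : ℕ → E2 := fun n => L.inv (wn n) (L.e w u₀) with hun_def
  have hun3 : ∀ᶠ n in atTop, un n ∈ ball (0 : E2) 3 := by
    filter_upwards [hmem] with n hn
    exact L.inv_mem_ball le_rfl hn
  have heun : ∀ᶠ n in atTop, L.e (wn n) (un n) = L.e w u₀ := by
    filter_upwards [hmem] with n hn
    exact L.e_inv (image_mono ball_subset_closedBall hn)
  have hun2 : ∀ᶠ n in atTop, un n ∈ ball (0 : E2) 2 := hun (isOpen_ball.mem_nhds hu₀)
  have hdm : ∀ᶠ n in atTop, un n ∈ L.dm (wn n) (k • yn n) := by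
    filter_upwards [hun3, heun, hyn_ep] with n h1 h2 h3
    refine ⟨h1, 0, by simp, ?_⟩
    rw [L.e_zero, L.ep_smul, h3, h2, hk]
  have hdm₀ : u₀ ∈ L.dm w (k • y) := by
    refine ⟨hu₀3, 0, by simp, ?_⟩
    rw [L.e_zero, L.ep_smul, hy, hk]
  have htau : Tendsto (fun n => fderiv ℝ (L.τ (wn n) (k • yn n)) (un n)) atTop
      (𝓝 (fderiv ℝ (L.τ w (k • y)) u₀)) := by
    refine L.fderiv_tau_tendsto hw hzn hun ?_ hdm hky.symm hdm₀
    filter_upwards [hyn_em] with n hn
    exact hn.symm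
  have hG : Tendsto (fun n => I.G (yn n)) atTop (𝓝 (I.G y)) := by
    refine (I.G_cont y hy).tendsto.comp (tendsto_nhdsWithin_iff.mpr ⟨hyn_t, ?_⟩)
    filter_upwards [hyn_ep] with n hn
    exact hn
  have hcov : Tendsto (fun n => I.G (yn n) ∘L fderiv ℝ (L.τ (wn n) (k • yn n)) (un n)) atTop
      (𝓝 (I.G y ∘L fderiv ℝ (L.τ w (k • y)) u₀)) := by
    have hc : Continuous fun p : (E2 →L[ℝ] ℝ) × (E2 →L[ℝ] E2) => p.1 ∘L p.2 := by fun_prop
    exact (hc.tendsto _).comp (hG.prodMk_nhds htau)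
  -- the functions `F n`
  set Fn : ℕ → E2 → ℝ := fun n u => Real.exp (χ * T n) •
    (I.P.f (L.e (L.φ (T n) (x n)) u) - I.P.f (L.ep (x n))) with hFn
  have hd : Tendsto (fun n => fderiv ℝ (Fn n) (un n)) atTop (𝓝 (fderiv ℝ F u₀)) := by
    have h4 : ∀ (f : E2 → ℝ) (u : E2), fderiv ℝ f u =
        (continuousMultilinearCurryFin1 ℝ E2 ℝ) (iteratedFDeriv ℝ 1 f u) := by
      intro f u
      ext v
      simp
    have hc : ContinuousWithinAt (iteratedFDeriv ℝ 1 F) (ball 0 2) u₀ := by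
      have h5 : ContinuousOn (iteratedFDerivWithin ℝ 1 F (ball 0 2)) (ball 0 2) :=
        hFs.continuousOn_iteratedFDerivWithin (by simp) isOpen_ball.uniqueDiffOn
      have h6 : ContinuousOn (iteratedFDeriv ℝ 1 F) (ball 0 2) :=
        h5.congr fun u hu => (iteratedFDerivWithin_of_isOpen 1 isOpen_ball hu).symm
      exact h6 u₀ hu₀
    have h1 := (hlim 1).tendstoLocallyUniformlyOn.tendsto_comp hc hu₀
      (tendsto_nhdsWithin_iff.mpr ⟨hun, hun2⟩)
    have h5 := ((continuousMultilinearCurryFin1 ℝ E2 ℝ).continuous.tendsto _).comp h1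
    rw [h4]
    refine h5.congr fun n => ?_
    simp only [Function.comp_apply]
    rw [h4]
  -- the differential of `F n` at `u n`
  have hkey : ∀ᶠ n in atTop, (g n)⁻¹ • L.e w u₀ ≠ I.η₀ →
      H969.dt (fderiv ℝ (Fn n) (un n))
        (I.G (yn n) ∘L fderiv ℝ (L.τ (wn n) (k • yn n)) (un n)) = 0 := by
    filter_upwards [hdm, hyn_ep, hyn_em, hun3, heun] with n h1 h2 h3 h5 h6 h4
    have hkη : ((g n)⁻¹ * k) • I.η₀ ≠ I.η₀ := by
      rw [mul_smul, ← hk]; exact h4
    have hkξ : L.em (((g n)⁻¹ * k) • yn n) = I.ξ := by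
      rw [mul_smul, L.em_smul, h3, hwn]
      simp only
      rw [L.em_smul, inv_smul_smul, L.em_φ, hxe]
    obtain ⟨s, -, hs⟩ := I.exact (yn n) ((g n)⁻¹ * k) h2 hkξ hkη
    set z := ((g n)⁻¹ * k) • yn n with hz
    have h0 : L.τ (wn n) (k • yn n) (un n) = 0 := by
      rw [L.tau_eq, h6, hk, ← h2, ← L.ep_smul, ← L.e_zero, L.inv_e (by simp)]
    have hdf : DifferentiableAt ℝ (fun u => I.P.f (L.e z u))
        (L.τ (wn n) (k • yn n) (un n)) := by
      rw [h0]
      exact ((I.smooth z hkξ).differentiableOn (by simp)).differentiableAt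
        (isOpen_ball.mem_nhds (by simp))
    have hdt := L.tau_diff h3.symm h1
    have heq : (Fn n) =ᶠ[𝓝 (un n)] fun u => Real.exp (χ * T n) •
        (((fun v => I.P.f (L.e z v)) ∘ L.τ (wn n) (k • yn n)) u - I.P.f (L.ep (x n))) := by
      filter_upwards [(L.isOpen_dm _ _).mem_nhds h1] with u hu
      have h7 : L.e z (L.τ (wn n) (k • yn n) u) = L.e (L.φ (T n) (x n)) u := by
        rw [hz, mul_smul, L.e_smul _ _ _ (ball_subset_closedBall (L.tau_mem hu)), L.e_tau hu, hwn]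
        simp only
        rw [L.e_smul _ _ _ (ball_subset_closedBall hu.1), inv_smul_smul]
      simp only [hFn, Function.comp_apply]
      rw [h7]
    have hfd : HasFDerivAt (fun u => Real.exp (χ * T n) •
        (((fun v => I.P.f (L.e z v)) ∘ L.τ (wn n) (k • yn n)) u - I.P.f (L.ep (x n))))
        (Real.exp (χ * T n) • (fderiv ℝ (fun u => I.P.f (L.e z u))
          (L.τ (wn n) (k • yn n) (un n)) ∘L fderiv ℝ (L.τ (wn n) (k • yn n)) (un n))) (un n) :=
      ((hdf.hasFDerivAt.comp (un n) hdt.hasFDerivAt).sub_const (I.P.f (L.ep (x n)))).fun_const_smul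
        (Real.exp (χ * T n))
    rw [heq.fderiv_eq, hfd.fderiv, h0, hs, H969.dt_smul_left, ContinuousLinearMap.smul_comp,
      H969.dt_smul_left, H969.dt_self, mul_zero, mul_zero]
  have hlim2 : Tendsto (fun n => H969.dt (fderiv ℝ (Fn n) (un n))
      (I.G (yn n) ∘L fderiv ℝ (L.τ (wn n) (k • yn n)) (un n))) atTop
      (𝓝 (H969.dt (fderiv ℝ F u₀) (I.G y ∘L fderiv ℝ (L.τ w (k • y)) u₀))) :=
    (H969.dt_cont.tendsto _).comp (hd.prodMk_nhds hcov)
  by_contra hcon
  have h1 := hlim2.eventually_ne hcon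
  obtain ⟨n, hn1, hn2, hn3⟩ := (hfreq.and_eventually (h1.and hkey)).exists
  exact hn2 (hn3 hn1)

/-- two limit objects at one frame have proportional differentials -/
theorem ww : L.WW I.ξ I.P.f χ := by
  intro w F F' hF hF'
  have hsF : ContDiffOn ℝ ∞ F (ball 0 2) := by
    obtain ⟨_, _, _, _, _, _, _, _, _, h1, _⟩ := hF
    exact h1
  have hsF' : ContDiffOn ℝ ∞ F' (ball 0 2) := by
    obtain ⟨_, _, _, _, _, _, _, _, _, h1, _⟩ := hF'
    exact h1
  obtain ⟨E, hE, hEF⟩ := I.lim_dt hF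
  obtain ⟨E', hE', hEF'⟩ := I.lim_dt hF'
  have hcF : ContinuousOn (fderiv ℝ F) (ball 0 2) :=
    hsF.continuousOn_fderiv_of_isOpen isOpen_ball (by simp)
  have hcF' : ContinuousOn (fderiv ℝ F') (ball 0 2) :=
    hsF'.continuousOn_fderiv_of_isOpen isOpen_ball (by simp)
  have hc : ContinuousOn (fun u => H969.dt (fderiv ℝ F u) (fderiv ℝ F' u)) (ball 0 2) :=
    H969.dt_cont.comp_continuousOn (hcF.prodMk hcF')
  intro u hu
  apply H969.dt_prop
  by_contra hcon
  -- the open set where the differentials are independent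
  set O : Set E2 := ball 0 2 ∩ {v | H969.dt (fderiv ℝ F v) (fderiv ℝ F' v) ≠ 0} with hO
  have hOo : IsOpen O := by
    have := hc.isOpen_inter_preimage isOpen_ball (isOpen_ne (x := (0 : ℝ)))
    exact this
  have hOu : u ∈ O := ⟨hu, hcon⟩
  set O' : Set E2 := O \ (E ∪ E') with hO'
  have hfin : (E ∪ E').Finite := hE.finite.union hE'.finite
  have hO'o : IsOpen O' := hOo.sdiff hfin.isClosed
  have hO'n : O'.Nonempty := by
    have h1 : O.Infinite := infinite_of_mem_nhds u (hOo.mem_nhds hOu)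
    exact (h1.sdiff hfin).nonempty
  have h3 : O' ⊆ ball 0 3 := fun v hv => ball_subset_ball (by norm_num) hv.1.1
  obtain ⟨b, ⟨k, rfl⟩, hb1⟩ := (L.dense_orbit I.η₀).exists_mem_open (L.isOpen_e_image w hO'o h3)
    (hO'n.image _)
  obtain ⟨u₀, hu₀, hek⟩ := hb1
  -- the frame `y`
  have hu₀3 : u₀ ∈ closedBall (0 : E2) 3 := ball_subset_closedBall (h3 hu₀)
  have hne : k⁻¹ • L.em w ≠ I.η₀ := by
    intro hc
    apply L.e_ne w u₀ hu₀3
    rw [hek]
    simp only
    rw [← hc, smul_inv_smul]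
  obtain ⟨y, hy1, hy2, -⟩ := L.exists_frame _ _ hne 0
  have hy3 : L.em (k • y) = L.em w := by rw [L.em_smul, hy1, smul_inv_smul]
  have hdm₀ : u₀ ∈ L.dm w (k • y) := by
    refine ⟨h3 hu₀, 0, by simp, ?_⟩
    rw [L.e_zero, L.ep_smul, hy2, hek]
  have hv : I.G y ∘L fderiv ℝ (L.τ w (k • y)) u₀ ≠ 0 := by
    intro h0
    apply I.G_ne y hy2
    have h4 : fderiv ℝ (L.τ w (k • y)) u₀ ∘L
        fderiv ℝ (L.τ (k • y) w) (L.τ w (k • y) u₀) = ContinuousLinearMap.id ℝ E2 := by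
      have := L.fderiv_tau_comp hy3 (L.tau_mem_dm hdm₀)
      rwa [L.tau_tau hdm₀] at this
    calc I.G y = (I.G y ∘L fderiv ℝ (L.τ w (k • y)) u₀) ∘L
          fderiv ℝ (L.τ (k • y) w) (L.τ w (k • y) u₀) := by
          rw [ContinuousLinearMap.comp_assoc, h4, ContinuousLinearMap.comp_id]
      _ = 0 := by rw [h0, ContinuousLinearMap.zero_comp]
  refine hu₀.1.2 (H969.dt_trans hv ?_ ?_)
  · exact hEF u₀ hu₀.1.1 (fun hc => hu₀.2 (Or.inl hc)) k hek y hy2 hy3
  · exact hEF' u₀ hu₀.1.1 (fun hc => hu₀.2 (Or.inr hc)) k hek y hy2 hy3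

end LineCase

end Vale.Agent.P207.N3
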