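import Vale.Agent.P207.N3.H969.Line
import Vale.Agent.P207.H575.T3.UA
import Vale.Agent.P207.H575.T3.AreaL

/-!
# P207, line N3: the line case is impossible
-/

open Set Filter Topology Metric MeasureTheory
open scoped ContDiff

noncomputable section

namespace Vale.Agent.P207.N3

variable {Γ X B : Type} [Group Γ] [MetricSpace X] [ProperSpace X] [MulAction Γ X]
  [IsIsometricSMul Γ X] [TopologicalSpace B] [CompactSpace B] [T2Space B] [MulAction Γ B]
  [ContinuousConstSMul Γ B] [MeasurableSpace B] [BorelSpace B]

/-- **the line case is impossible** (2.1, 2.2, 2.3) -/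
theorem LineCase.false {L : Leaf Γ X B} {χ : ℝ} (I : LineCase L χ) (A : Area L)
    (h : A.h ≤ 2 * χ) : False := by
  refine L.area_lemma A I.P I.smooth (L.u_all I.smooth I.hom) ?_
  rcases h.lt_or_eq with h | h
  · exact Or.inl h
  · exact Or.inr ⟨h, I.ww⟩

end Vale.Agent.P207.N3
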