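import Vale.Agent.P207.N3.H969.Det
import Vale.Agent.P207.N3.Top.Defs

/-!
# P207, line N3: the line case from a normal coordinate and the matrices `B_κ`

`o` is a closed orbit, `n` its normal coordinate, `G y`, `ep y = β⁺`, the derivative of the forward
coordinate. If at all homoclinic points the differential of the linear form `l` of `n.x` is a
multiple of `l ∘ G y` with the exact factor, then `LineCase`.
-/

open Set Filter Topology Metric MeasureTheory
open scoped ContDiff

set_option linter.unusedSectionVars false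

noncomputable section

namespace Vale.Agent.P207.N3

variable {Γ X B : Type} [Group Γ] [MetricSpace X] [ProperSpace X] [MulAction Γ X]
  [IsIsometricSMul Γ X] [TopologicalSpace B] [CompactSpace B] [T2Space B] [MulAction Γ B]
  [ContinuousConstSMul Γ B]

namespace H969

/-- the linear form `p v₀ + q v₁` -/
def lin (p q : ℝ) : E2 →L[ℝ] ℝ :=
  p • EuclideanSpace.proj (0 : Fin 2) + q • EuclideanSpace.proj (1 : Fin 2)

theorem lin_apply (p q : ℝ) (v : E2) : lin p q v = p * v 0 + q * v 1 := by
  simp [lin]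

theorem lin_ne {p q : ℝ} (h : p ≠ 0 ∨ q ≠ 0) : lin p q ≠ 0 := by
  intro h0
  rcases h with h | h
  · apply h
    have := congrArg (fun f : E2 →L[ℝ] ℝ => f (EuclideanSpace.single 0 1)) h0
    simpa [lin_apply] using this
  · apply h
    have := congrArg (fun f : E2 →L[ℝ] ℝ => f (EuclideanSpace.single 1 1)) h0
    simpa [lin_apply] using this

/-- the orthogonal frame of a linear form -/
def toP (p q : ℝ) (v : E2) : ℝ × ℝ := (p * v 0 + q * v 1, -q * v 0 + p * v 1)

def ofP (p q : ℝ) (w : ℝ × ℝ) : E2 :=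
  !₂[(p * w.1 - q * w.2) / (p ^ 2 + q ^ 2), (q * w.1 + p * w.2) / (p ^ 2 + q ^ 2)]

theorem pq_pos {p q : ℝ} (h : p ≠ 0 ∨ q ≠ 0) : 0 < p ^ 2 + q ^ 2 := by
  rcases h with h | h
  · have := sq_pos_of_ne_zero h
    nlinarith [sq_nonneg q]
  · have := sq_pos_of_ne_zero h
    nlinarith [sq_nonneg p]

theorem toP_ofP {p q : ℝ} (h : p ≠ 0 ∨ q ≠ 0) (w : ℝ × ℝ) : toP p q (ofP p q w) = w := by
  have := (pq_pos h).ne'
  ext
  · simp [toP, ofP]
    field_simp
    ring
  · simp [toP, ofP]
    field_simp
    ring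

theorem ofP_toP {p q : ℝ} (h : p ≠ 0 ∨ q ≠ 0) (v : E2) : ofP p q (toP p q v) = v := by
  have := (pq_pos h).ne'
  ext i
  fin_cases i
  · simp [toP, ofP]
    field_simp
    ring
  · simp [toP, ofP]
    field_simp
    ring

theorem toP_cont (p q : ℝ) : Continuous (toP p q) := by
  unfold toP
  fun_prop

theorem ofP_cont (p q : ℝ) : Continuous (ofP p q) := by
  have h : ofP p q = fun w : ℝ × ℝ => (WithLp.toLp 2
      ![(p * w.1 - q * w.2) / (p ^ 2 + q ^ 2), (q * w.1 + p * w.2) / (p ^ 2 + q ^ 2)] : E2) := rfl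
  rw [h]
  refine (PiLp.continuous_toLp 2 _).comp (continuous_pi fun i => ?_)
  fin_cases i
  · exact ((continuous_const.mul continuous_fst).sub
      (continuous_const.mul continuous_snd)).div_const _
  · exact ((continuous_const.mul continuous_fst).add
      (continuous_const.mul continuous_snd)).div_const _

variable {L : Leaf Γ X B} {o : Orb L}

/-- a function which is smooth on a leaf is continuous there -/
theorem cont_of_smooth {V : Type} [NormedAddCommGroup V] [NormedSpace ℝ V] {ξ : B} {f : B → V}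
    (hf : L.SmoothOn ξ f) : ContinuousOn f {ξ}ᶜ := by
  intro η hη
  obtain ⟨y, hy1, hy2, -⟩ := L.exists_frame ξ η (fun h => hη h.symm) 0
  apply ContinuousAt.continuousWithinAt
  have h0 : (0 : E2) ∈ ball (0 : E2) 3 := by simp
  have hη' : L.e y 0 = η := by rw [L.e_zero, hy2]
  obtain ⟨h1, h2⟩ := L.inv_tendsto (tendsto_const_nhds (x := y) (f := 𝓝 η)) (b := fun b => b)
    (x₀ := y) (u₀ := 0) (by rw [hη']; exact tendsto_id) h0
  have h3 : ContinuousAt (fun v => f (L.e y v)) 0 :=
    (hf y hy1).continuousOn.continuousAt (isOpen_ball.mem_nhds h0)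
  have h4 := h3.tendsto.comp h2
  rw [hη'] at h4
  refine h4.congr' ?_
  filter_upwards [h1] with b hb
  simp only [Function.comp_apply]
  rw [L.e_inv (image_mono ball_subset_closedBall hb)]

/-- the punctured chart whose first coordinate is the linear form `p x₀ + q x₁` of the normal
coordinate -/
def pchart (n : Nor L o) {p q : ℝ} (hpq : p ≠ 0 ∨ q ≠ 0) :
    Vale.Agent.P207.H575.T3.PChart o.neg where
  X := {
    toFun := fun η => toP p q (n.x η)
    invFun := fun w => n.inv (ofP p q w)
    source := {o.neg}ᶜ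
    target := univ
    map_source' := fun _ _ => mem_univ _
    map_target' := fun w _ => n.inv_ne _
    left_inv' := fun η hη => by
      rw [ofP_toP hpq]
      exact n.inv_left η hη
    right_inv' := fun w _ => by
      rw [n.inv_right, toP_ofP hpq]
    open_source := isOpen_compl_singleton
    open_target := isOpen_univ
    continuousOn_toFun := (toP_cont p q).comp_continuousOn (cont_of_smooth n.smooth)
    continuousOn_invFun := (n.inv_cont.comp (ofP_cont p q)).continuousOn }
  src := rfl
  tgt := rfl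

theorem pchart_f (n : Nor L o) {p q : ℝ} (hpq : p ≠ 0 ∨ q ≠ 0) (η : B) :
    (pchart n hpq).f η = lin p q (n.x η) := by
  rw [lin_apply]
  rfl

/-- the line case from the linear form `lin p q` of a normal coordinate -/
def lineCase_of (n : Nor L o) {p q : ℝ} (hpq : p ≠ 0 ∨ q ≠ 0) {G : X → E2 →L[ℝ] E2}
    (G_cont : ContinuousOn G {y | L.ep y = o.pos}) (G_det : ∀ y, L.ep y = o.pos → (G y).det ≠ 0)
    {χ : ℝ} {g : X → ℝ} (g_cont : ContinuousOn g {y | L.ep y = o.pos})
    (g_pos : ∀ y, L.ep y = o.pos → 0 < g y)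
    (H : ∀ (y : X) (k : Γ), L.ep y = o.pos → L.em (k • y) = o.neg → k • o.pos ≠ o.pos →
      ∃ c : ℝ, |c| ≤ g y * Real.exp (-(χ * L.lv (k • y))) ∧
        lin p q ∘L fderiv ℝ (fun u => n.x (L.e (k • y) u)) 0 = c • (lin p q ∘L G y)) :
    LineCase L χ where
  ξ := o.neg
  η₀ := o.pos
  P := pchart n hpq
  smooth := fun y hy => by
    have h1 := (lin p q).contDiff.comp_contDiffOn (n.smooth y hy)
    refine h1.congr fun u _ => ?_
    rw [pchart_f]
    rfl
  G := fun y => g y • (lin p q ∘L G y)
  G_cont := by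
    have hc : Continuous fun M : E2 →L[ℝ] E2 => lin p q ∘L M := by fun_prop
    exact g_cont.smul (hc.comp_continuousOn G_cont)
  G_ne := fun y hy h0 => by
    rcases smul_eq_zero.mp h0 with h1 | h1
    · exact (g_pos y hy).ne' h1
    · -- the covector does not vanish because `G y` is onto
      have hdet := G_det y hy
      have hu : IsUnit (LinearMap.det (G y : E2 →ₗ[ℝ] E2)) := isUnit_iff_ne_zero.mpr hdet
      have hs : Function.Surjective (G y) := by
        have h2 := (LinearMap.isUnit_iff_isUnit_det _).mpr hu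
        exact ((Module.End.isUnit_iff _).mp h2).2
      apply lin_ne hpq
      ext v
      obtain ⟨w, rfl⟩ := hs v
      have := congrArg (fun f : E2 →L[ℝ] ℝ => f w) h1
      simpa using this
  C := 1
  exact := fun y k hy hk hkη => by
    obtain ⟨c, hc, hf⟩ := H y k hy hk hkη
    have hg := g_pos y hy
    refine ⟨c / g y, ?_, ?_⟩
    · rw [abs_div, abs_of_pos hg, one_mul, div_le_iff₀ hg, mul_comm]
      exact hc
    · have h1 : (fun u => (pchart n hpq).f (L.e (k • y) u)) =
          fun u => lin p q (n.x (L.e (k • y) u)) := by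
        funext u
        rw [pchart_f]
      have h2 : DifferentiableAt ℝ (fun u => n.x (L.e (k • y) u)) 0 :=
        ((n.smooth _ hk).differentiableOn (by simp)).differentiableAt
          (isOpen_ball.mem_nhds (by simp))
      rw [h1, smul_smul, div_mul_cancel₀ _ hg.ne', ← hf]
      exact ((lin p q).hasFDerivAt.comp (0 : E2) h2.hasFDerivAt).fderiv

/-- two frames over one homoclinic point: comparison of the levels -/
theorem lv_hom {y : X} {k : Γ} (hy : L.ep y = o.pos) (hk : L.em (k • y) = o.neg) :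
    L.lv (k • y) = L.lv (L.hol o.neg (k • o.x)) + (L.lv y - L.lv (L.hol (L.em y) o.x)) := by
  have hne : L.em y ≠ L.ep o.x := by
    have := L.em_ne_ep y
    rw [hy] at this
    exact this
  have h1 : L.hol o.neg (k • o.x) = k • L.hol (L.em y) o.x := by
    rw [← hk, L.em_smul, L.hol_smul k _ _ hne]
  have h2 := L.lv_smul k y (L.hol (L.em y) o.x) (L.hol_em _ _ hne).symm
  rw [h1]
  linarith

theorem hol_cont' : ContinuousOn (fun y : X => L.hol (L.em y) o.x) {y | L.ep y = o.pos} := by
  have h1 : ContinuousOn (fun y : X => (L.em y, o.x)) {y | L.ep y = o.pos} :=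
    (L.em_cont.prodMk continuous_const).continuousOn
  refine L.hol_cont.comp h1 fun y hy => ?_
  have := L.em_ne_ep y
  rw [hy] at this
  exact this

/-- the line case, exact form in terms of the lengths `L_k` (4.5, types S, scalar, Jordan):
`l ∘ B_k = c l`, `|c| = e^{χ L_k}` -/
def lineCase_exact (n : Nor L o) {p q : ℝ} (hpq : p ≠ 0 ∨ q ≠ 0) {G : X → E2 →L[ℝ] E2}
    (G_cont : ContinuousOn G {y | L.ep y = o.pos}) (G_det : ∀ y, L.ep y = o.pos → (G y).det ≠ 0)
    {χ : ℝ} {Bk : Γ → E2 →L[ℝ] E2}
    (link : ∀ (y : X) (k : Γ), L.ep y = o.pos → L.em (k • y) = o.neg → k • o.pos ≠ o.pos →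
      Bk k ∘L fderiv ℝ (fun u => n.x (L.e (k • y) u)) 0 = G y)
    (line : ∀ k : Γ, k • o.pos ≠ o.pos → k • o.pos ≠ o.neg → ∃ c : ℝ,
      Real.exp (χ * (L.lv (L.hol o.neg (k • o.x)) - L.lv o.x)) ≤ |c| ∧
      lin p q ∘L Bk k = c • lin p q) :
    LineCase L χ :=
  lineCase_of n hpq G_cont G_det (χ := χ)
    (g := fun y => Real.exp (χ * (L.lv y - L.lv (L.hol (L.em y) o.x) + L.lv o.x)))
    (by
      have h1 : ContinuousOn (fun y : X => L.lv (L.hol (L.em y) o.x)) {y | L.ep y = o.pos} :=
        L.lv_cont.comp_continuousOn hol_cont'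
      exact (continuousOn_const.mul
        ((L.lv_cont.continuousOn.sub h1).add continuousOn_const)).rexp)
    (fun y _ => Real.exp_pos _)
    (by
      intro y k hy hk hkη
      have hkn : k • o.pos ≠ o.neg := by
        intro hc
        have h1 : L.ep (k • y) = L.em (k • y) := by rw [L.ep_smul, hy, hc, hk]
        exact L.em_ne_ep _ h1.symm
      obtain ⟨c, hc, hl⟩ := line k hkη hkn
      have hc0 : c ≠ 0 := by
        intro h0
        rw [h0, abs_zero] at hc
        exact absurd (Real.exp_pos _) (not_lt.mpr hc)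
      refine ⟨c⁻¹, ?_, ?_⟩
      · rw [abs_inv, ← Real.exp_add]
        have h2 : χ * (L.lv y - L.lv (L.hol (L.em y) o.x) + L.lv o.x) + -(χ * L.lv (k • y)) =
            -(χ * (L.lv (L.hol o.neg (k • o.x)) - L.lv o.x)) := by
          rw [lv_hom hy hk]; ring
        rw [h2, Real.exp_neg]
        exact inv_anti₀ (Real.exp_pos _) hc
      · rw [← link y k hy hk hkη, ← ContinuousLinearMap.comp_assoc, hl,
          ContinuousLinearMap.smul_comp, smul_smul, inv_mul_cancel₀ hc0, one_smul])

variable [MeasurableSpace B] [BorelSpace B]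

/-- the line case, determinant form (Part A): `l ∘ B_k = c l`, `c² = |det B_k|` -/
theorem lineCase_det (A : Area L) (n : Nor L o) {Λ : E2 →L[ℝ] E2} (hΛ : ∀ v, n.N.fn v = Λ v)
    {p q : ℝ} (hpq : p ≠ 0 ∨ q ≠ 0)
    {G : X → E2 →L[ℝ] E2} (G_cont : ContinuousOn G {y | L.ep y = o.pos})
    (G_det : ∀ y, L.ep y = o.pos → (G y).det ≠ 0) {Bk : Γ → E2 →L[ℝ] E2}
    (link : ∀ (y : X) (k : Γ), L.ep y = o.pos → L.em (k • y) = o.neg → k • o.pos ≠ o.pos →
      Bk k ∘L fderiv ℝ (fun u => n.x (L.e (k • y) u)) 0 = G y)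
    (line : ∀ k : Γ, k • o.pos ≠ o.pos → k • o.pos ≠ o.neg → ∃ c : ℝ, c ^ 2 = |(Bk k).det| ∧
      lin p q ∘L Bk k = c • lin p q) :
    ∃ I : LineCase L (A.h / 2), I.ξ = o.neg := by
  have hdet := f_det (A := A) o.ax n.smooth (Λ := Λ)
    (fun η hη => by rw [n.equiv η hη, hΛ]) (fun y hy => n.deriv y hy 0 (by simp))
  obtain ⟨-, c₀, hc₀, hfd⟩ := hdet
  refine ⟨lineCase_of n hpq G_cont G_det (χ := A.h / 2)
    (g := fun y => Real.sqrt (c₀ * A.s y 0 / |(G y).det|)) ?_ ?_ ?_, rfl⟩
  · have h1 : ContinuousOn (fun y : X => A.s y 0) {y | L.ep y = o.pos} := by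
      have h2 := A.s_cont 0
      have h3 : ContinuousOn (fun p : X × E2 => A.s p.1 p.2) (univ ×ˢ ball 0 3) := by
        have h4 : Continuous fun m : ContinuousMultilinearMap ℝ (fun _ : Fin 0 => E2) ℝ =>
            m (fun _ => 0) := by fun_prop
        refine (h4.comp_continuousOn h2).congr fun p _ => ?_
        simp
      have h5 : Continuous fun y : X => (y, (0 : E2)) := by fun_prop
      exact h3.comp h5.continuousOn fun y _ => ⟨trivial, by simp⟩
    have h2 : ContinuousOn (fun y : X => |(G y).det|) {y | L.ep y = o.pos} :=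
      (ContinuousLinearMap.continuous_det.comp_continuousOn G_cont).abs
    exact ((continuousOn_const.mul h1).div h2 fun y hy => abs_ne_zero.mpr (G_det y hy)).sqrt
  · intro y hy
    apply Real.sqrt_pos.mpr
    have h1 := A.s_pos y 0 (by simp)
    have h2 : 0 < |(G y).det| := abs_pos.mpr (G_det y hy)
    positivity
  · intro y k hy hk hkη
    have hkn : k • o.pos ≠ o.neg := by
      intro hc
      have h1 : L.ep (k • y) = L.em (k • y) := by rw [L.ep_smul, hy, hc, hk]
      exact L.em_ne_ep _ h1.symm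
    obtain ⟨c, hc, hl⟩ := line k hkη hkn
    have h2 := link y k hy hk hkη
    set D := fderiv ℝ (fun u => n.x (L.e (k • y) u)) 0 with hD
    have h3 : (Bk k).det * D.det = (G y).det := by
      rw [← h2]
      exact (LinearMap.det_comp _ _).symm
    have hG0 := G_det y hy
    have hB0 : (Bk k).det ≠ 0 := by
      intro h0
      rw [h0, zero_mul] at h3
      exact hG0 h3.symm
    have hD0 : D.det ≠ 0 := by
      intro h0
      rw [h0, mul_zero] at h3
      exact hG0 h3.symm
    have h4 : |D.det| = c₀ * Real.exp (-A.h * L.lv (k • y)) * A.s y 0 := by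
      have := hfd (k • y) hk 0 (by simp)
      rw [A.s_smul k y 0 (by simp)] at this
      exact this
    have hc0 : c ≠ 0 := by
      intro h0
      rw [h0] at hc
      apply hB0
      rw [← abs_eq_zero, ← hc]
      norm_num
    refine ⟨c⁻¹, ?_, ?_⟩
    · apply le_of_sq_le_sq _ (by positivity)
      rw [sq_abs, inv_pow, hc, mul_pow, Real.sq_sqrt (by
        have h5 := A.s_pos y 0 (by simp)
        positivity)]
      have h6 : Real.exp (-(A.h / 2 * L.lv (k • y))) ^ 2 = Real.exp (-A.h * L.lv (k • y)) := by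
        rw [← Real.exp_nat_mul]
        congr 1
        push_cast
        ring
      rw [h6, ← h3, abs_mul]
      have h7 : 0 < |(Bk k).det| := abs_pos.mpr hB0
      have h8 : 0 < |D.det| := abs_pos.mpr hD0
      apply le_of_eq
      have h9 : |(Bk k).det|⁻¹ = |D.det| / (|(Bk k).det| * |D.det|) := by field_simp
      rw [h9, h4]
      ring
    · rw [← h2, ← ContinuousLinearMap.comp_assoc, hl, ContinuousLinearMap.smul_comp, smul_smul,
        inv_mul_cancel₀ hc0, one_smul]

end H969

end Vale.Agent.P207.N3
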