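import Vale.Agent.P207.N3.H969.PartA
import Vale.Agent.P207.N3.H662.FDefs

/-!
# P207, line N3, package PA: an invariant form gives the case (i) data of P8
-/

open Set Filter Topology Metric MeasureTheory
open scoped ContDiff

noncomputable section

namespace Vale.Agent.P207.N3.H969

variable {Γ X B : Type} [Group Γ] [MetricSpace X] [ProperSpace X] [MulAction Γ X]
  [IsIsometricSMul Γ X] [TopologicalSpace B] [CompactSpace B] [T2Space B] [MulAction Γ B]
  [ContinuousConstSMul Γ B] [MeasurableSpace B] [BorelSpace B]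

variable {L : Leaf Γ X B} {o : Orb L}

/-- an invertible linear map of the plane is bijective -/
theorem bij_of_det {M : E2 →L[ℝ] E2} (h : M.det ≠ 0) : Function.Bijective M := by
  have hu : IsUnit (LinearMap.det (M : E2 →ₗ[ℝ] E2)) := isUnit_iff_ne_zero.mpr h
  exact (Module.End.isUnit_iff _).mp ((LinearMap.isUnit_iff_isUnit_det _).mpr hu)

/-- two linear maps with proportional norms differ by an orthogonal map -/
theorem exists_iso {S T : E2 →L[ℝ] E2} (hT : T.det ≠ 0) {c : ℝ} (hc : 0 < c)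
    (h : ∀ v, ‖S v‖ = c * ‖T v‖) : ∃ O : E2 ≃ₗᵢ[ℝ] E2, ∀ v, S v = c • O (T v) := by
  have hb := bij_of_det hT
  let e : E2 ≃ₗ[ℝ] E2 := LinearEquiv.ofBijective (T : E2 →ₗ[ℝ] E2) hb
  have he : ∀ v, e v = T v := fun v => rfl
  let O₀ : E2 →ₗᵢ[ℝ] E2 :=
    { toLinearMap := c⁻¹ • ((S : E2 →ₗ[ℝ] E2) ∘ₗ (e.symm : E2 →ₗ[ℝ] E2))
      norm_map' := fun v => by
        have h1 : T (e.symm v) = v := by rw [← he, LinearEquiv.apply_symm_apply]
        simp only [LinearMap.smul_apply, LinearMap.comp_apply, LinearEquiv.coe_coe,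
          ContinuousLinearMap.coe_coe]
        rw [norm_smul, h, h1, norm_inv, Real.norm_eq_abs, abs_of_pos hc]
        field_simp }
  refine ⟨O₀.toLinearIsometryEquiv rfl, fun v => ?_⟩
  have h1 : (O₀.toLinearIsometryEquiv rfl) (T v) = c⁻¹ • S v := by
    change c⁻¹ • S (e.symm (T v)) = c⁻¹ • S v
    rw [← he, LinearEquiv.symm_apply_apply]
  rw [h1, smul_smul, mul_inv_cancel₀ hc.ne', one_smul]

/-- the linear map with a given matrix -/
theorem exists_clm (P : Matrix (Fin 2) (Fin 2) ℝ) : ∃ M : E2 →L[ℝ] E2, mx M = P := by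
  refine ⟨LinearMap.toContinuousLinearMap (Matrix.toLin (EuclideanSpace.basisFun (Fin 2) ℝ).toBasis
    (EuclideanSpace.basisFun (Fin 2) ℝ).toBasis P), ?_⟩
  unfold mx
  rw [LinearMap.coe_toContinuousLinearMap, LinearMap.toMatrix_toLin]

theorem norm_sq_mx (M : E2 →L[ℝ] E2) (v : E2) : ‖M v‖ ^ 2 =
    ((mx M).transpose * mx M) 0 0 * v 0 ^ 2 + 2 * ((mx M).transpose * mx M) 0 1 * (v 0 * v 1)
      + ((mx M).transpose * mx M) 1 1 * v 1 ^ 2 := by
  have hM : ∀ i, (M v) i = mx M i 0 * v 0 + mx M i 1 * v 1 := by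
    intro i
    rw [mx_apply, mx_apply]
    conv_lhs => rw [vec_eq v]
    rw [map_add, map_smul, map_smul]
    simp only [PiLp.add_apply, PiLp.smul_apply, smul_eq_mul]
    ring
  rw [EuclideanSpace.norm_sq_eq, Fin.sum_univ_two, hM, hM]
  simp only [Real.norm_eq_abs, sq_abs, Matrix.mul_apply, Matrix.transpose_apply,
    Fin.sum_univ_two]
  ring

/-- the invariance of a form in terms of norms -/
theorem norm_of_form {P B : E2 →L[ℝ] E2} {s : ℝ}
    (h : (mx P * mx B).transpose * (mx P * mx B) = s • ((mx P).transpose * mx P)) (v : E2) :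
    ‖P (B v)‖ ^ 2 = s * ‖P v‖ ^ 2 := by
  have h1 := norm_sq_mx (P ∘L B) v
  rw [mx_comp, h] at h1
  rw [norm_sq_mx P v]
  have h2 : (P ∘L B) v = P (B v) := rfl
  rw [h2] at h1
  rw [h1]
  simp only [Matrix.smul_apply, smul_eq_mul]
  ring

theorem det_comp' (S T : E2 →L[ℝ] E2) : (S ∘L T).det = S.det * T.det :=
  LinearMap.det_comp _ _

/-- **PA: an invariant form gives the data of P8** -/
theorem caseI_of_form (A : Area L) (n : Nor L o) {c : ℝ} (W : H147.Fwd o n.x n.N.fn c)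
    {Λ : E2 →L[ℝ] E2} (hΛ : ∀ v, n.N.fn v = Λ v)
    (hF : ∃ P : Matrix (Fin 2) (Fin 2) ℝ, P.det ≠ 0 ∧ ∀ k : {k : Γ // k • o.pos ≠ o.neg},
      (P * mx (W.Bm k.1)).transpose * (P * mx (W.Bm k.1))
        = |(mx (W.Bm k.1)).det| • (P.transpose * P)) :
    Nonempty (H662.CaseI L A) := by
  obtain ⟨P, hP, hform⟩ := hF
  obtain ⟨Q, rfl⟩ := exists_clm P
  rw [← det_eq] at hP
  have h1ne : (1 : Γ) • o.pos ≠ o.neg := by
    rw [one_smul]
    exact (L.em_ne_ep o.x).symm
  have hβpos : o.β • o.pos = o.pos := H147.Ax.smul_ep o.ax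
  have hβne : o.β • o.pos ≠ o.neg := by
    rw [hβpos]
    exact (L.em_ne_ep o.x).symm
  -- the form on vectors
  have hnorm : ∀ (k : Γ), k • o.pos ≠ o.neg → ∀ v,
      ‖Q (W.Bm k v)‖ ^ 2 = |(W.Bm k).det| * ‖Q v‖ ^ 2 := by
    intro k hk v
    have h1 := hform ⟨k, hk⟩
    rw [← det_eq] at h1
    exact norm_of_form h1 v
  -- the determinant
  obtain ⟨hdetΛ, c₀, hc₀, hfd⟩ := f_det (A := A) o.ax n.smooth (Λ := Λ)
    (fun η hη => by rw [← hΛ]; exact n.equiv η hη) (fun y hy => n.deriv y hy 0 (by simp))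
  have hdiff : ∀ y, L.em y = o.neg → ∀ u ∈ ball (0 : E2) 3,
      DifferentiableAt ℝ (fun v => n.x (L.e y v)) u := fun y hy u hu =>
    ((n.smooth y hy).differentiableOn (by simp)).differentiableAt (isOpen_ball.mem_nhds hu)
  have hder : ∀ y, L.em y = o.neg → ∀ u ∈ ball (0 : E2) 3,
      fderiv ℝ (fun v => Q (n.x (L.e y v))) u = Q ∘L fderiv ℝ (fun v => n.x (L.e y v)) u :=
    fun y hy u hu => (Q.hasFDerivAt.comp u (hdiff y hy u hu).hasFDerivAt).fderiv
  -- `B_β = B_1 ∘ Λ`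
  have hBβ : W.Bm o.β = W.Bm 1 ∘L Λ := by
    have e1 := H310.Bm_eq (n := n) W (1 : Γ) (y := o.x) rfl (by rw [one_smul]; rfl)
    have e2 := H310.Bm_eq (n := n) W o.β (y := o.x) rfl
      (by rw [L.em_smul]; exact H147.Ax.smul_em o.ax)
    rw [one_smul] at e1
    have hem : L.em (o.β • o.x) = o.neg := by
      rw [L.em_smul]; exact H147.Ax.smul_em o.ax
    have h0b : (0 : E2) ∈ ball (0 : E2) 3 := by simp
    have e3 : fderiv ℝ (fun u => n.x (L.e o.x u)) 0 =
        Λ ∘L fderiv ℝ (fun u => n.x (L.e (o.β • o.x) u)) 0 := by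
      have h1 : (fun v => n.x (L.e o.x v)) =ᶠ[𝓝 0] fun v => Λ (n.x (L.e (o.β • o.x) v)) := by
        filter_upwards [isOpen_ball.mem_nhds h0b] with v hv
        have hv' := ball_subset_closedBall hv
        have h2 : L.e (o.β • o.x) v ≠ o.neg := by
          rw [← hem]
          exact L.e_ne _ v hv'
        rw [← hΛ, ← n.equiv _ h2, L.e_smul _ _ _ hv', inv_smul_smul]
      rw [h1.fderiv_eq]
      exact (Λ.hasFDerivAt.comp 0 (hdiff _ hem 0 h0b).hasFDerivAt).fderiv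
    have hD : (fderiv ℝ (fun u => n.x (L.e (o.β • o.x) u)) 0).det ≠ 0 := n.deriv _ hem 0 h0b
    have hs := (bij_of_det hD).2
    ext1 v
    obtain ⟨w, rfl⟩ := hs v
    have e4 : W.Bm o.β (fderiv ℝ (fun u => n.x (L.e (o.β • o.x) u)) 0 w) = W.G o.x w := by
      rw [← e2]; rfl
    have e5 : W.Bm 1 (fderiv ℝ (fun u => n.x (L.e o.x u)) 0 w) = W.G o.x w := by
      rw [← e1]; rfl
    rw [e4, ← e5, e3]
    rfl
  have hB1 : (W.Bm 1).det ≠ 0 := H310.Bm_det W 1 h1ne
  -- `Λ` preserves the form up to the factor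
  have hΛn : ∀ v, ‖Q (Λ v)‖ ^ 2 = |Λ.det| * ‖Q v‖ ^ 2 := by
    intro v
    have e1 := hnorm o.β hβne v
    have e2 := hnorm 1 h1ne (Λ v)
    rw [hBβ, det_comp', abs_mul] at e1
    have e3 : (W.Bm 1 ∘L Λ) v = W.Bm 1 (Λ v) := rfl
    rw [e3, e2] at e1
    have h3 : 0 < |(W.Bm 1).det| := abs_pos.mpr hB1
    refine mul_left_cancel₀ h3.ne' ?_
    rw [e1]; ring
  have hΛdet : Λ.det ≠ 0 := by
    intro h0
    rw [h0, abs_zero] at hdetΛ
    exact (Real.exp_pos _).ne hdetΛ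
  obtain ⟨O, hO⟩ := exists_iso (S := Q) (T := Q ∘L Λ) (by
      rw [det_comp']; exact mul_ne_zero hP hΛdet) (c := Real.exp (-(A.h * o.l / 2)))
    (Real.exp_pos _) (by
      intro v
      have h1 := hΛn v
      rw [hdetΛ] at h1
      have h2 : ‖(Q ∘L Λ) v‖ = ‖Q (Λ v)‖ := rfl
      rw [h2]
      have h3 : ‖Q v‖ ^ 2 = (Real.exp (-(A.h * o.l / 2)) * ‖Q (Λ v)‖) ^ 2 := by
        rw [mul_pow, h1, ← mul_assoc]
        have h4 : Real.exp (-(A.h * o.l / 2)) ^ 2 * Real.exp (A.h * o.l) = 1 := by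
          rw [← Real.exp_nat_mul, ← Real.exp_add]
          have : ((2 : ℕ) : ℝ) * -(A.h * o.l / 2) + A.h * o.l = 0 := by push_cast; ring
          rw [this, Real.exp_zero]
        rw [h4, one_mul]
      exact (sq_eq_sq₀ (norm_nonneg _) (by positivity)).mp h3)
  have hQb := bij_of_det hP
  refine ⟨{ ξ := o.neg, η₀ := o.pos, f := fun η => Q (n.x η), f_smooth := ?_, f_bij := ?_,
            c₀ := |Q.det| * c₀, c₀_pos := mul_pos (abs_pos.mpr hP) hc₀, f_det := ?_,
            G := fun y => Q ∘L W.G y, G_cont := ?_, G_det := ?_, conf := ?_,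
            β := o.β, x₀ := o.x, l := o.l, a := o.a, axis := o.ax, em_x₀ := rfl, ep_x₀ := rfl,
            Λ := O, equivar := ?_ }⟩
  · intro y hy
    exact Q.contDiff.comp_contDiffOn (n.smooth y hy)
  · refine ⟨fun _ _ => mem_univ _, ?_, ?_⟩
    · intro η hη η' hη' h
      have h1 := hQb.1 h
      rw [← n.inv_left η hη, ← n.inv_left η' hη', h1]
    · intro v _
      obtain ⟨w, rfl⟩ := hQb.2 v
      exact ⟨n.inv w, n.inv_ne w, by simp only; rw [n.inv_right]⟩
  · intro y hy u hu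
    rw [hder y hy u hu, det_comp', abs_mul, hfd y hy u hu]
    ring
  · have hc : Continuous fun M : E2 →L[ℝ] E2 => Q ∘L M := by fun_prop
    exact hc.comp_continuousOn (H310.G_cont W)
  · intro y hy
    rw [det_comp']
    exact mul_ne_zero hP (H310.G_det W hy)
  · intro y k hy hk
    have hkn : k • o.pos ≠ o.neg := by
      intro hc
      have h1 : L.ep (k • y) = L.em (k • y) := by rw [L.ep_smul, hy, hc, hk]
      exact L.em_ne_ep _ h1.symm
    have hBk : (W.Bm k).det ≠ 0 := H310.Bm_det W k hkn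
    have hpos : 0 < |(W.Bm k).det| := abs_pos.mpr hBk
    have hlink := H310.Bm_eq (n := n) W k hy hk
    obtain ⟨O', hO'⟩ := exists_iso (S := fderiv ℝ (fun u => Q (n.x (L.e (k • y) u))) 0)
      (T := Q ∘L W.G y) (by
        rw [det_comp']; exact mul_ne_zero hP (H310.G_det W hy))
      (c := (Real.sqrt |(W.Bm k).det|)⁻¹) (by positivity) (by
        intro v
        rw [hder _ hk 0 (by simp)]
        have h1 := hnorm k hkn (fderiv ℝ (fun u => n.x (L.e (k • y) u)) 0 v)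
        have h2 : W.Bm k (fderiv ℝ (fun u => n.x (L.e (k • y) u)) 0 v) = W.G y v := by
          rw [← hlink]; rfl
        rw [h2] at h1
        have h3 : ‖(Q ∘L W.G y) v‖ = ‖Q (W.G y v)‖ := rfl
        have h4 : ‖(Q ∘L fderiv ℝ (fun u => n.x (L.e (k • y) u)) 0) v‖ =
          ‖Q (fderiv ℝ (fun u => n.x (L.e (k • y) u)) 0 v)‖ := rfl
        rw [h3, h4]
        refine (sq_eq_sq₀ (norm_nonneg _) (by positivity)).mp ?_
        rw [mul_pow, inv_pow, Real.sq_sqrt hpos.le, h1]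
        field_simp)
    exact ⟨_, O', by positivity, hO'⟩
  · intro η hη
    have h2 : o.β • η ≠ o.neg := by
      intro hc
      apply hη
      have h1 : o.β • o.neg = o.neg := H147.Ax.smul_em o.ax
      rw [← h1] at hc
      exact smul_left_cancel _ hc
    have h3 := n.equiv _ h2
    rw [inv_smul_smul, hΛ] at h3
    have h4 := hO (n.x (o.β • η))
    have h5 : (Q ∘L Λ) (n.x (o.β • η)) = Q (Λ (n.x (o.β • η))) := rfl
    rw [h5, ← h3] at h4
    exact h4

/-- the same, for 310's `Form` -/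
theorem caseI_of_Form (A : Area L) (n : Nor L o) {c : ℝ} (W : H147.Fwd o n.x n.N.fn c)
    {Λ : E2 →L[ℝ] E2} (hΛ : ∀ v, n.N.fn v = Λ v) {N : Matrix (Fin 2) (Fin 2) ℝ}
    (hF : H310.Form N (fun k : {k : Γ // k • o.pos ≠ o.neg} => mx (W.Bm k.1))) :
    Nonempty (H662.CaseI L A) := by
  obtain ⟨P, hP, h, -⟩ := hF
  exact caseI_of_form A n W hΛ ⟨P, hP, h⟩

end Vale.Agent.P207.N3.H969
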