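import Vale.Agent.P207.N3.H969.LineFalse
import Vale.Agent.P207.N3.H969.OfLin
import Vale.Agent.P207.N3.H310.Fw

/-!
# P207, line N3, package PA: the invariant line is impossible
-/

open Set Filter Topology Metric MeasureTheory
open scoped ContDiff

noncomputable section

namespace Vale.Agent.P207.N3.H969

variable {Γ X B : Type} [Group Γ] [MetricSpace X] [ProperSpace X] [MulAction Γ X]
  [IsIsometricSMul Γ X] [TopologicalSpace B] [CompactSpace B] [T2Space B] [MulAction Γ B]
  [ContinuousConstSMul Γ B] [MeasurableSpace B] [BorelSpace B]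

variable {L : Leaf Γ X B} {o : Orb L}

/-- the linear form of a matrix relation -/
theorem lin_comp {p q c : ℝ} {M : E2 →L[ℝ] E2} (h0 : p * mx M 0 0 + q * mx M 1 0 = c * p)
    (h1 : p * mx M 0 1 + q * mx M 1 1 = c * q) : lin p q ∘L M = c • lin p q := by
  rw [mx_apply, mx_apply] at h0 h1
  ext v
  rw [cov_apply (lin p q ∘L M) v, cov_apply (c • lin p q) v]
  simp only [ContinuousLinearMap.comp_apply, _root_.smul_apply, lin_apply, smul_eq_mul]
  simp only [PiLp.single_apply]
  simp
  linear_combination v 0 * h0 + v 1 * h1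

/-- **PA: the matrices `B_κ` have no invariant line** -/
theorem line_false (A : Area L) (n : Nor L o) {c : ℝ} (W : H147.Fwd o n.x n.N.fn c)
    {Λ : E2 →L[ℝ] E2} (hΛ : ∀ v, n.N.fn v = Λ v)
    (hL : H310.Line (fun k : {k : Γ // k • o.pos ≠ o.neg} => mx (W.Bm k.1))) : False := by
  obtain ⟨l0, l1, hne, hl⟩ := hL
  obtain ⟨I, -⟩ := lineCase_det A n hΛ hne (H310.G_cont W) (fun y hy => H310.G_det W hy)
    (Bk := W.Bm) (fun y k hy hk _ => H310.Bm_eq W k hy hk)
    (fun k _ hk => by
      obtain ⟨c, hc, h0, h1⟩ := hl ⟨k, hk⟩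
      refine ⟨c, ?_, lin_comp h0 h1⟩
      rw [hc, det_eq])
  exact I.false A (by linarith)

end Vale.Agent.P207.N3.H969
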