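import Vale.Agent.P207.N3.H969.Line
import Vale.Agent.P207.N3.H147.Axis

/-!
# P207, line N3, package PA: the area form in a linearising coordinate

If `f` is a smooth coordinate of the leaf `U_{β⁻}` with `f ∘ β⁻¹ = Λ ∘ f`, `Λ` linear, then
`|det Λ| = e^{h l}` and `f` carries the Margulis area to a constant multiple of the Lebesgue area.
-/

open Set Filter Topology Metric MeasureTheory
open scoped ContDiff

set_option linter.unusedSectionVars false

noncomputable section

namespace Vale.Agent.P207.N3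

variable {Γ X B : Type} [Group Γ] [MetricSpace X] [ProperSpace X] [MulAction Γ X]
  [IsIsometricSMul Γ X] [TopologicalSpace B] [CompactSpace B] [T2Space B] [MulAction Γ B]
  [ContinuousConstSMul Γ B] [MeasurableSpace B] [BorelSpace B]

namespace H969

variable {L : Leaf Γ X B} (A : Area L)

/-- the Jacobian of `f` on the leaf, with respect to the Margulis area -/
def cc (f : B → E2) (y : X) (u : E2) : ℝ :=
  |(fderiv ℝ (fun v => f (L.e y v)) u).det| * Real.exp (A.h * L.lv y) / A.s y u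

/-- chain rule for a function on a leaf in two charts -/
theorem fderiv_chart {V : Type} [NormedAddCommGroup V] [NormedSpace ℝ V] {ξ : B} {f : B → V}
    (hf : L.SmoothOn ξ f) {y z : X} (hy : L.em y = ξ) (hz : L.em z = ξ) {u : E2}
    (hu : u ∈ L.dm y z) :
    fderiv ℝ (fun v => f (L.e y v)) u
      = fderiv ℝ (fun v => f (L.e z v)) (L.τ y z u) ∘L fderiv ℝ (L.τ y z) u := by
  have h1 : DifferentiableAt ℝ (fun v => f (L.e z v)) (L.τ y z u) :=
    ((hf z hz).differentiableOn (by simp)).differentiableAt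
      (isOpen_ball.mem_nhds (L.tau_mem hu))
  have h2 := L.tau_diff (hy.trans hz.symm) hu
  rw [← fderiv_comp u h1 h2]
  apply Filter.EventuallyEq.fderiv_eq
  filter_upwards [(L.isOpen_dm y z).mem_nhds hu] with v hv
  simp only [Function.comp_apply]
  rw [L.e_tau hv]

theorem cc_eq {ξ : B} {f : B → E2} (hf : L.SmoothOn ξ f) {y z : X} (hy : L.em y = ξ)
    (hz : L.em z = ξ) {u : E2} (hu : u ∈ L.dm y z) : cc A f y u = cc A f z (L.τ y z u) := by
  have hd : (fderiv ℝ (L.τ y z) u).det ≠ 0 := by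
    intro h0
    have h1 := congrArg ContinuousLinearMap.det (L.fderiv_tau_comp (hy.trans hz.symm) hu)
    have h2 : (fderiv ℝ (L.τ z y) (L.τ y z u) ∘L fderiv ℝ (L.τ y z) u).det =
        (fderiv ℝ (L.τ z y) (L.τ y z u)).det * (fderiv ℝ (L.τ y z) u).det :=
      LinearMap.det_comp _ _
    rw [h2, h0, mul_zero] at h1
    have h3 : (ContinuousLinearMap.id ℝ E2).det = 1 := LinearMap.det_id
    rw [h3] at h1
    exact zero_ne_one h1
  have h1 := A.s_trans y z (hy.trans hz.symm) u hu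
  have h2 : (fderiv ℝ (fun v => f (L.e z v)) (L.τ y z u) ∘L fderiv ℝ (L.τ y z) u).det =
      (fderiv ℝ (fun v => f (L.e z v)) (L.τ y z u)).det * (fderiv ℝ (L.τ y z) u).det :=
    LinearMap.det_comp _ _
  have hs1 := A.s_pos z (L.τ y z u) (L.tau_mem hu)
  have hd' : 0 < |(fderiv ℝ (L.τ y z) u).det| := abs_pos.mpr hd
  unfold cc
  rw [fderiv_chart hf hy hz hu, h2, abs_mul, h1, mul_sub, Real.exp_sub]
  field_simp

theorem cc_eq_zero {ξ : B} {f : B → E2} (hf : L.SmoothOn ξ f) {y z : X} (hy : L.em y = ξ)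
    (hz : L.em z = ξ) {u : E2} (hu : u ∈ ball (0 : E2) 3) (h : L.ep z = L.e y u) :
    cc A f y u = cc A f z 0 := by
  have h1 : u ∈ L.dm y z := ⟨hu, 0, by simp, by rw [L.e_zero, h]⟩
  have h2 : L.τ y z u = 0 := by
    rw [L.tau_eq, ← h, ← L.e_zero, L.inv_e (by simp)]
  rw [cc_eq A hf hy hz h1, h2]

theorem cc_cont {ξ : B} {f : B → E2} (hf : L.SmoothOn ξ f) {y : X} (hy : L.em y = ξ) :
    ContinuousOn (cc A f y) (ball 0 3) := by
  have h1 : ContinuousOn (fderiv ℝ fun v => f (L.e y v)) (ball 0 3) :=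
    (hf y hy).continuousOn_fderiv_of_isOpen isOpen_ball (by simp)
  have h2 : Continuous fun M : E2 →L[ℝ] E2 => M.det := ContinuousLinearMap.continuous_det
  refine ContinuousOn.div ?_ (A.s_smooth y).continuousOn fun u hu => (A.s_pos y u hu).ne'
  exact ((h2.comp_continuousOn h1).abs).mul continuousOn_const

variable {A}

/-- the determinant of a linearised closed orbit, and the Jacobian of the linearising coordinate -/
theorem f_det {β : Γ} {x₀ : X} {l : ℝ} {a : O2} (hax : L.IsAxis β x₀ l a) {f : B → E2}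
    (hf : L.SmoothOn (L.em x₀) f) {Λ : E2 →L[ℝ] E2}
    (heq : ∀ η, η ≠ L.em x₀ → f (β⁻¹ • η) = Λ (f η))
    (hne : ∀ y, L.em y = L.em x₀ → (fderiv ℝ (fun v => f (L.e y v)) 0).det ≠ 0) :
    |Λ.det| = Real.exp (A.h * l) ∧ ∃ c₀ > 0, ∀ y, L.em y = L.em x₀ → ∀ u ∈ ball (0 : E2) 3,
      |(fderiv ℝ (fun v => f (L.e y v)) u).det| = c₀ * Real.exp (-A.h * L.lv y) * A.s y u := by
  have h0b : (0 : E2) ∈ ball (0 : E2) 3 := by simp
  -- equivariance
  have hβ : ∀ z, L.em z = L.em x₀ → L.em (β • z) = L.em x₀ := fun z hz => by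
    rw [L.em_smul, hz, H147.Ax.smul_em hax]
  have hstep : ∀ z, L.em z = L.em x₀ →
      cc A f z 0 = |Λ.det| * Real.exp (-(A.h * l)) * cc A f (β • z) 0 := by
    intro z hz
    have h1 : (fun v => f (L.e z v)) =ᶠ[𝓝 0] fun v => Λ (f (L.e (β • z) v)) := by
      filter_upwards [isOpen_ball.mem_nhds h0b] with v hv
      have hv' := ball_subset_closedBall hv
      have h2 : L.e (β • z) v ≠ L.em x₀ := by
        rw [← hβ z hz]
        exact L.e_ne _ v hv'
      rw [← heq _ h2, L.e_smul _ _ _ hv', inv_smul_smul]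
    have h2 : DifferentiableAt ℝ (fun v => f (L.e (β • z) v)) 0 :=
      ((hf _ (hβ z hz)).differentiableOn (by simp)).differentiableAt (isOpen_ball.mem_nhds h0b)
    have h3 : fderiv ℝ (fun v => f (L.e z v)) 0 =
        Λ ∘L fderiv ℝ (fun v => f (L.e (β • z) v)) 0 := by
      rw [h1.fderiv_eq]
      exact (Λ.hasFDerivAt.comp 0 h2.hasFDerivAt).fderiv
    have h4 : (Λ ∘L fderiv ℝ (fun v => f (L.e (β • z) v)) 0).det =
        Λ.det * (fderiv ℝ (fun v => f (L.e (β • z) v)) 0).det := LinearMap.det_comp _ _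
    unfold cc
    rw [h3, h4, abs_mul, A.s_smul β z 0 h0b, H147.Ax.lv_smul hax hz, mul_add, Real.exp_add]
    have h5 : Real.exp (-(A.h * l)) * Real.exp (A.h * l) = 1 := by
      rw [← Real.exp_add, neg_add_cancel, Real.exp_zero]
    linear_combination (-(|Λ.det| * |(fderiv ℝ (fun v => f (L.e (β • z) v)) 0).det| *
      Real.exp (A.h * L.lv z) / A.s z 0)) * h5
  have hccpos : ∀ z, L.em z = L.em x₀ → 0 < cc A f z 0 := by
    intro z hz
    unfold cc
    have h1 := A.s_pos z 0 h0b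
    have h2 : 0 < |(fderiv ℝ (fun v => f (L.e z v)) 0).det| := abs_pos.mpr (hne z hz)
    positivity
  have hx : cc A f x₀ 0 = cc A f (β • x₀) 0 := by
    apply cc_eq_zero A hf rfl (hβ x₀ rfl) h0b
    rw [L.e_zero, L.ep_smul, H147.Ax.smul_ep hax]
  have hmul : |Λ.det| * Real.exp (-(A.h * l)) = 1 := by
    have h1 := hstep x₀ rfl
    rw [← hx] at h1
    have h2 := hccpos x₀ rfl
    have h3 : cc A f x₀ 0 * (|Λ.det| * Real.exp (-(A.h * l)) - 1) = 0 := by
      linear_combination -h1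
    have h4 := (mul_eq_zero.mp h3).resolve_left h2.ne'
    linarith
  have hdet : |Λ.det| = Real.exp (A.h * l) := by
    rw [Real.exp_neg] at hmul
    have := Real.exp_pos (A.h * l)
    field_simp at hmul
    exact hmul
  refine ⟨hdet, cc A f x₀ 0, hccpos x₀ rfl, ?_⟩
  -- invariance and contraction
  have hinv : ∀ (m : ℕ) z, L.em z = L.em x₀ →
      L.em (β ^ m • z) = L.em x₀ ∧ cc A f (β ^ m • z) 0 = cc A f z 0 := by
    intro m
    induction m with
    | zero => intro z hz; simp [hz]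
    | succ m ih =>
      intro z hz
      obtain ⟨h1, h2⟩ := ih z hz
      have h3 := hstep _ h1
      rw [hmul, one_mul] at h3
      rw [pow_succ', mul_smul]
      exact ⟨hβ _ h1, by rw [← h3, h2]⟩
  have hconst : ∀ z, L.em z = L.em x₀ → cc A f z 0 = cc A f x₀ 0 := by
    intro z hz
    have h1 : Tendsto (fun m : ℕ => β ^ m • L.ep z) atTop (𝓝 (L.e x₀ 0)) := by
      rw [L.e_zero]
      intro V hV
      have h2 := H147.Ax.north hax (isCompact_singleton (x := L.ep z))
        (by rw [mem_singleton_iff, ← hz]; exact L.em_ne_ep z) hV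
      rw [mem_map]
      filter_upwards [h2] with m hm
      exact hm _ rfl
    obtain ⟨h2, h3⟩ := L.inv_tendsto (tendsto_const_nhds (x := x₀)) h1 h0b
    have h4 : Tendsto (fun m : ℕ => cc A f x₀ (L.inv x₀ (β ^ m • L.ep z))) atTop
        (𝓝 (cc A f x₀ 0)) :=
      ((cc_cont A hf rfl).continuousAt (isOpen_ball.mem_nhds h0b)).tendsto.comp h3
    have h5 : ∀ᶠ m : ℕ in atTop, cc A f x₀ (L.inv x₀ (β ^ m • L.ep z)) = cc A f z 0 := by
      filter_upwards [h2] with m hm
      obtain ⟨h6, h7⟩ := hinv m z hz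
      rw [← h7]
      apply cc_eq_zero A hf rfl h6 (L.inv_mem_ball le_rfl hm)
      rw [L.ep_smul, L.e_inv (image_mono ball_subset_closedBall hm)]
    exact tendsto_nhds_unique (tendsto_const_nhds.congr' (h5.mono fun m hm => hm.symm)) h4
  intro y hy u hu
  obtain ⟨z, hz1, hz2, -⟩ := L.exists_frame (L.em x₀) (L.e y u)
    (by rw [← hy]; exact (L.e_ne y u (ball_subset_closedBall hu)).symm) 0
  have h1 : cc A f y u = cc A f x₀ 0 := by
    rw [cc_eq_zero A hf hy hz1 hu hz2, hconst z hz1]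
  rw [← h1]
  unfold cc
  have h2 := A.s_pos y u hu
  have h3 : Real.exp (A.h * L.lv y) * Real.exp (-(A.h * L.lv y)) = 1 := by
    rw [← Real.exp_add]
    simp
  rw [neg_mul]
  field_simp
  linear_combination (-|(fderiv ℝ (fun v => f (L.e y v)) u).det|) * h3

/-- the determinant of `B_κ`: if `D(f ∘ e (k • y))(0) = M ∘ G`, then
`|det M| |det G| = c₀ e^{-h lv (k • y)} s y 0` -/
theorem det_hom {ξ : B} {f : B → E2} {c₀ : ℝ}
    (h : ∀ y, L.em y = ξ → ∀ u ∈ ball (0 : E2) 3,
      |(fderiv ℝ (fun v => f (L.e y v)) u).det| = c₀ * Real.exp (-A.h * L.lv y) * A.s y u)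
    {y : X} {k : Γ} (hk : L.em (k • y) = ξ) {M G : E2 →L[ℝ] E2}
    (hM : fderiv ℝ (fun v => f (L.e (k • y) v)) 0 = M ∘L G) :
    |M.det| * |G.det| = c₀ * Real.exp (-A.h * L.lv (k • y)) * A.s y 0 := by
  have h1 := h _ hk 0 (by simp)
  have h2 : (M ∘L G).det = M.det * G.det := LinearMap.det_comp _ _
  rw [hM, h2, abs_mul, A.s_smul k y 0 (by simp)] at h1
  exact h1

end H969

end Vale.Agent.P207.N3
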